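import Mathlib

/-!
Affine independence from a Radon relation (P254).

If the weighted sums of the points a i (weights al) and of the points b j (weights be) agree,
both weight families sum to one, al 0 is nonzero, and the convex hull of all the points
(k+1 points a i and n+1 points b j in dimension n+k) has nonempty interior, then the
n+k+1 points other than a 0 are affinely independent.
-/

namespace Vale.Agent.Lib.P254

open Finset

theorem affineIndependent_of_radon {k n : ℕ} (a : Fin (k + 1) → Fin (n + k) → ℝ)
    (b : Fin (n + 1) → Fin (n + k) → ℝ) (al : Fin (k + 1) → ℝ) (be : Fin (n + 1) → ℝ)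
    (hal0 : al 0 ≠ 0) (hal : ∑ i, al i = 1) (hbe : ∑ j, be j = 1)
    (hrad : ∑ i, al i • a i = ∑ j, be j • b j)
    (hint : (interior (convexHull ℝ (Set.range a ∪ Set.range b))).Nonempty) :
    AffineIndependent ℝ (Sum.elim (Fin.tail a) b : Fin k ⊕ Fin (n + 1) → Fin (n + k) → ℝ) := by
  classical
  set p : Fin k ⊕ Fin (n + 1) → Fin (n + k) → ℝ := Sum.elim (Fin.tail a) b with hp
  -- the affine span of all points is everything
  have htop : affineSpan ℝ (Set.range a ∪ Set.range b) = ⊤ :=
    interior_convexHull_nonempty_iff_affineSpan_eq_top.mp hint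
  -- weights expressing `a 0` through the other points
  set w : Fin k ⊕ Fin (n + 1) → ℝ :=
    Sum.elim (fun i => -(al i.succ) / al 0) (fun j => be j / al 0) with hw
  have hsum_al : al 0 + ∑ i : Fin k, al i.succ = 1 := by
    rw [← hal, Fin.sum_univ_succ]
  have hw1 : ∑ i, w i = 1 := by
    rw [Fintype.sum_sum_type]
    simp only [hw, Sum.elim_inl, Sum.elim_inr]
    rw [← Finset.sum_div, ← Finset.sum_div, hbe, Finset.sum_neg_distrib]
    have : ∑ i : Fin k, al i.succ = 1 - al 0 := by linarith
    rw [this]
    field_simp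
    ring
  have hrad' : al 0 • a 0 + ∑ i : Fin k, al i.succ • a i.succ = ∑ j, be j • b j := by
    rw [← hrad, Fin.sum_univ_succ]
  have hcomb : ∑ i, w i • p i = a 0 := by
    rw [Fintype.sum_sum_type]
    simp only [hw, hp, Sum.elim_inl, Sum.elim_inr, Fin.tail]
    have e1 : ∑ i : Fin k, (-(al i.succ) / al 0) • a i.succ
        = -((al 0)⁻¹ • ∑ i : Fin k, al i.succ • a i.succ) := by
      rw [Finset.smul_sum, ← Finset.sum_neg_distrib]
      apply Finset.sum_congr rfl
      intro i _
      rw [smul_smul, ← neg_smul]
      congr 1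
      field_simp
    have e2 : ∑ j : Fin (n + 1), (be j / al 0) • b j
        = (al 0)⁻¹ • ∑ j : Fin (n + 1), be j • b j := by
      rw [Finset.smul_sum]
      apply Finset.sum_congr rfl
      intro j _
      rw [smul_smul]
      congr 1
      field_simp
    rw [e1, e2, ← hrad', smul_add, smul_smul, inv_mul_cancel₀ hal0, one_smul]
    abel
  have ha0 : a 0 ∈ affineSpan ℝ (Set.range p) := by
    have h := affineCombination_mem_affineSpan (k := ℝ) (s := Finset.univ) hw1 p
    rw [Finset.affineCombination_eq_linear_combination _ _ _ hw1, hcomb] at h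
    exact h
  have hsub : Set.range a ∪ Set.range b ⊆ (affineSpan ℝ (Set.range p) : Set (Fin (n + k) → ℝ)) := by
    rintro x (⟨i, rfl⟩ | ⟨j, rfl⟩)
    · refine Fin.cases ?_ (fun i' => ?_) i
      · exact ha0
      · exact subset_affineSpan ℝ _ ⟨Sum.inl i', rfl⟩
    · exact subset_affineSpan ℝ _ ⟨Sum.inr j, rfl⟩
  have hspan : affineSpan ℝ (Set.range p) = ⊤ := by
    apply top_unique
    rw [← htop]
    exact affineSpan_le_of_subset_coe hsub
  have hvec : vectorSpan ℝ (Set.range p) = ⊤ :=
    AffineSubspace.vectorSpan_eq_top_of_affineSpan_eq_top ℝ _ _ hspan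
  have hcard : Fintype.card (Fin k ⊕ Fin (n + 1)) = (n + k) + 1 := by
    simp [Fintype.card_sum]
    omega
  rw [affineIndependent_iff_le_finrank_vectorSpan ℝ p hcard, hvec]
  simp

end Vale.Agent.Lib.P254
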