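import Mathlib

/-!
Scalar algebra of the bipyramid tower (P254): the recursion
`R' = R (1 - 2 t q/(1+t)^2)`, `q' = q/((1+t)^2 - 2 t q)`, `a' = a/(1+t)`,
`A2' = A2 - 2 a^2 t/(1+t)^2` preserves the invariant
`R = A2 + B2 - A2 B2` and `q R = a^2 (1 - B2)`, together with the side conditions
`0 < R`, `0 ≤ q ≤ 1`.
-/

namespace Vale.Agent.Lib.P254.H17

/-- The denominator of the `q`-recursion is positive when `0 ≤ q ≤ 1`, `0 < t`. -/
theorem tower_den_pos {q t : ℝ} (ht : 0 < t) (hq1 : q ≤ 1) :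
    0 < (1 + t) ^ 2 - 2 * t * q := by
  nlinarith [mul_nonneg ht.le (sub_nonneg.mpr hq1), sq_nonneg t]

/-- The factor of the `R`-recursion is positive when `0 ≤ q ≤ 1`, `0 < t`. -/
theorem tower_factor_pos {q t : ℝ} (ht : 0 < t) (hq1 : q ≤ 1) :
    0 < 1 - 2 * t * q / (1 + t) ^ 2 := by
  have h1 : 0 < (1 + t) ^ 2 := by positivity
  have h2 := tower_den_pos ht hq1
  have e : 1 - 2 * t * q / (1 + t) ^ 2 = ((1 + t) ^ 2 - 2 * t * q) / (1 + t) ^ 2 := by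
    field_simp
  rw [e]
  exact div_pos h2 h1

/-- The factor of the `R`-recursion is at most one when `0 ≤ q`, `0 < t`. -/
theorem tower_factor_le_one {q t : ℝ} (ht : 0 < t) (hq0 : 0 ≤ q) :
    1 - 2 * t * q / (1 + t) ^ 2 ≤ 1 := by
  have h1 : 0 < (1 + t) ^ 2 := by positivity
  have : 0 ≤ 2 * t * q / (1 + t) ^ 2 := by positivity
  linarith

/-- `q' = q/((1+t)^2 - 2 t q)` stays in `[0,1]`. -/
theorem tower_q_nonneg {q t : ℝ} (ht : 0 < t) (hq0 : 0 ≤ q) (hq1 : q ≤ 1) :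
    0 ≤ q / ((1 + t) ^ 2 - 2 * t * q) :=
  div_nonneg hq0 (tower_den_pos ht hq1).le

theorem tower_q_le_one {q t : ℝ} (ht : 0 < t) (hq0 : 0 ≤ q) (hq1 : q ≤ 1) :
    q / ((1 + t) ^ 2 - 2 * t * q) ≤ 1 := by
  rw [div_le_one (tower_den_pos ht hq1)]
  nlinarith [mul_nonneg ht.le (sub_nonneg.mpr hq1), sq_nonneg t, mul_nonneg ht.le hq0]

/-- The upper-apex variant `q'' = t^2 q/((1+t)^2 - 2 t q)` stays in `[0,1]`. -/
theorem tower_q_up_nonneg {q t : ℝ} (ht : 0 < t) (hq0 : 0 ≤ q) (hq1 : q ≤ 1) :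
    0 ≤ t ^ 2 * q / ((1 + t) ^ 2 - 2 * t * q) :=
  div_nonneg (by positivity) (tower_den_pos ht hq1).le

theorem tower_q_up_le_one {q t : ℝ} (ht : 0 < t) (hq0 : 0 ≤ q) (hq1 : q ≤ 1) :
    t ^ 2 * q / ((1 + t) ^ 2 - 2 * t * q) ≤ 1 := by
  rw [div_le_one (tower_den_pos ht hq1)]
  nlinarith [mul_nonneg ht.le (sub_nonneg.mpr hq1), sq_nonneg t, mul_nonneg ht.le hq0,
    mul_nonneg (sq_nonneg t) (sub_nonneg.mpr hq1)]

/-- One step of the tower (lower apex distinguished): the invariant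
`R = A2 + B2 - A2 B2`, `q R = a^2 (1 - B2)` is preserved. -/
theorem tower_step {R q a A2 B2 t : ℝ} (ht : 0 < t) (hq1 : q ≤ 1)
    (h1 : R = A2 + B2 - A2 * B2) (h2 : q * R = a ^ 2 * (1 - B2)) :
    R * (1 - 2 * t * q / (1 + t) ^ 2)
        = (A2 - 2 * a ^ 2 * t / (1 + t) ^ 2) + B2 - (A2 - 2 * a ^ 2 * t / (1 + t) ^ 2) * B2 ∧
      q / ((1 + t) ^ 2 - 2 * t * q) * (R * (1 - 2 * t * q / (1 + t) ^ 2))
        = (a / (1 + t)) ^ 2 * (1 - B2) := by
  have h1t : (1 + t) ≠ 0 := by positivity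
  have hden := (tower_den_pos ht hq1).ne'
  constructor
  · have e : R * (1 - 2 * t * q / (1 + t) ^ 2) = R - 2 * t * (q * R) / (1 + t) ^ 2 := by
      field_simp
    rw [e, h2, h1]
    field_simp
    ring
  · have hfac : 1 - 2 * t * q / (1 + t) ^ 2 = ((1 + t) ^ 2 - 2 * t * q) / (1 + t) ^ 2 := by
      field_simp
    have e : q / ((1 + t) ^ 2 - 2 * t * q) * (R * (1 - 2 * t * q / (1 + t) ^ 2))
        = q * R / (1 + t) ^ 2 := by
      rw [hfac]
      generalize (1 + t) ^ 2 - 2 * t * q = D at hden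
      field_simp
    rw [e, h2]
    field_simp

/-- One step of the tower with the UPPER apex distinguished:
`a'' = a t/(1+t)`, `q'' = t^2 q/((1+t)^2 - 2 t q)`. -/
theorem tower_step_up {R q a A2 B2 t : ℝ} (ht : 0 < t) (hq1 : q ≤ 1)
    (h1 : R = A2 + B2 - A2 * B2) (h2 : q * R = a ^ 2 * (1 - B2)) :
    R * (1 - 2 * t * q / (1 + t) ^ 2)
        = (A2 - 2 * a ^ 2 * t / (1 + t) ^ 2) + B2 - (A2 - 2 * a ^ 2 * t / (1 + t) ^ 2) * B2 ∧
      t ^ 2 * q / ((1 + t) ^ 2 - 2 * t * q) * (R * (1 - 2 * t * q / (1 + t) ^ 2))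
        = (a * t / (1 + t)) ^ 2 * (1 - B2) := by
  have h1t : (1 + t) ≠ 0 := by positivity
  have hden := (tower_den_pos ht hq1).ne'
  refine ⟨(tower_step ht hq1 h1 h2).1, ?_⟩
  have hfac : 1 - 2 * t * q / (1 + t) ^ 2 = ((1 + t) ^ 2 - 2 * t * q) / (1 + t) ^ 2 := by
    field_simp
  have e : t ^ 2 * q / ((1 + t) ^ 2 - 2 * t * q) * (R * (1 - 2 * t * q / (1 + t) ^ 2))
      = t ^ 2 * (q * R) / (1 + t) ^ 2 := by
    rw [hfac]
    generalize (1 + t) ^ 2 - 2 * t * q = D at hden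
    field_simp
  rw [e, h2]
  field_simp

/-- Splitting the coefficient `a` into `a/(1+t)` and `a t/(1+t)` changes the sum of squares by
`- 2 a^2 t/(1+t)^2`. -/
theorem split_sq (a t : ℝ) (ht : 0 < t) :
    (a / (1 + t)) ^ 2 + (a * t / (1 + t)) ^ 2 = a ^ 2 - 2 * a ^ 2 * t / (1 + t) ^ 2 := by
  have h1t : (1 + t) ≠ 0 := by positivity
  field_simp
  ring

/-- The two pieces add up to `a`. -/
theorem split_add (a t : ℝ) (ht : 0 < t) : a / (1 + t) + a * t / (1 + t) = a := by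
  have h1t : (1 + t) ≠ 0 := by positivity
  field_simp

end Vale.Agent.Lib.P254.H17
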